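import Mathlib

/-!
Finite `r`-partite `r`-uniform hypergraphs.  The parts are indexed by `Fin r`; the vertices of
part `i` are the pairs `(i, v)` with `v : V`; an edge is a function `e : Fin r → V`, standing for
the vertex set `{(i, e i)}`, which has exactly one vertex in each part.
-/

namespace Vale.Agent.P045

variable {r : ℕ} {V : Type*}

/-- `C` is a vertex cover of `H`: every edge contains a vertex of `C`. -/
def IsCover (H : Finset (Fin r → V)) (C : Finset (Fin r × V)) : Prop :=
  ∀ e ∈ H, ∃ i, (i, e i) ∈ C

/-- `M` is a matching of `H`: a set of pairwise disjoint edges of `H`. -/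
def IsMatching (H M : Finset (Fin r → V)) : Prop :=
  M ⊆ H ∧ ∀ e ∈ M, ∀ f ∈ M, e ≠ f → ∀ i, e i ≠ f i

/-- The covering number: the least size of a vertex cover. -/
noncomputable def tau (H : Finset (Fin r → V)) : ℕ :=
  sInf {n | ∃ C : Finset (Fin r × V), IsCover H C ∧ C.card = n}

/-- The matching number: the largest size of a matching. -/
noncomputable def nu (H : Finset (Fin r → V)) : ℕ :=
  sSup {n | ∃ M : Finset (Fin r → V), IsMatching H M ∧ M.card = n}

/-- The degree of the vertex `(i, v)`: the number of edges containing it. -/
def deg [DecidableEq V] (H : Finset (Fin r → V)) (i : Fin r) (v : V) : ℕ :=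
  (H.filter (fun e => e i = v)).card

/-- `H` is intersecting: it has an edge and any two edges share a vertex. -/
def IsIntersecting (H : Finset (Fin r → V)) : Prop :=
  H.Nonempty ∧ ∀ e ∈ H, ∀ f ∈ H, ∃ i, e i = f i

end Vale.Agent.P045
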