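import Mathlib

/-!
König's theorem for finite bipartite graphs given as a finite set of pairs, derived from
Hall's marriage theorem, and a greedy independent-set lemma.
-/

namespace Vale.Agent.P045

open Finset

section Konig

variable {α β : Type*} [DecidableEq α] [DecidableEq β]

/-- `(A, B)` covers the bipartite graph `G`. -/
def PairCover (G : Finset (α × β)) (A : Finset α) (B : Finset β) : Prop :=
  ∀ p ∈ G, p.1 ∈ A ∨ p.2 ∈ B

/-- One side of König's theorem: in a minimum cover `(A, B)`, the side `A` can be matched
into the complement of `B`. -/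
theorem hall_side (G : Finset (α × β)) (A : Finset α) (B : Finset β)
    (hcov : PairCover G A B)
    (hmin : ∀ A' B', PairCover G A' B' → A.card + B.card ≤ A'.card + B'.card) :
    ∃ f : {a // a ∈ A} → β, Function.Injective f ∧
      ∀ a : {a // a ∈ A}, ((a : α), f a) ∈ G ∧ f a ∉ B := by
  classical
  let t : {a // a ∈ A} → Finset β := fun a =>
    (G.filter (fun p => p.1 = (a : α) ∧ p.2 ∉ B)).image Prod.snd
  have hall : ∀ s : Finset {a // a ∈ A}, s.card ≤ (s.biUnion t).card := by
    intro s
    by_contra hlt
    rw [not_le] at hlt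
    set S' : Finset α := s.map (Function.Embedding.subtype _) with hS'
    have hS'sub : S' ⊆ A := by
      intro x hx
      simp only [hS', mem_map, Function.Embedding.coe_subtype] at hx
      obtain ⟨y, _, rfl⟩ := hx
      exact y.2
    have hS'card : S'.card = s.card := by simp [hS']
    have hc : PairCover G (A \ S') (B ∪ s.biUnion t) := by
      intro p hp
      by_cases h2 : p.2 ∈ B
      · right; exact mem_union_left _ h2
      · rcases hcov p hp with h1 | h1
        · by_cases h3 : p.1 ∈ S'
          · right
            apply mem_union_right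
            simp only [hS', mem_map, Function.Embedding.coe_subtype] at h3
            obtain ⟨y, hy, hy1⟩ := h3
            refine mem_biUnion.2 ⟨y, hy, ?_⟩
            simp only [t, mem_image, mem_filter]
            exact ⟨p, ⟨hp, hy1.symm, h2⟩, rfl⟩
          · left; exact mem_sdiff.2 ⟨h1, h3⟩
        · exact absurd h1 h2
    have h1 := hmin _ _ hc
    have h2 : (A \ S').card = A.card - S'.card := card_sdiff_of_subset hS'sub
    have h3 : (B ∪ s.biUnion t).card ≤ B.card + (s.biUnion t).card := card_union_le _ _
    have h4 : S'.card ≤ A.card := card_le_card hS'sub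
    omega
  obtain ⟨f, hf, hft⟩ := (Finset.all_card_le_biUnion_card_iff_exists_injective t).1 hall
  refine ⟨f, hf, fun a => ?_⟩
  have := hft a
  simp only [t, mem_image, mem_filter] at this
  obtain ⟨p, ⟨hp, hp1, hp2⟩, hp3⟩ := this
  have hpe : p = ((a : α), f a) := by
    ext
    · exact hp1
    · exact hp3
  constructor
  · rw [← hpe]; exact hp
  · rw [← hp3]; exact hp2

/-- König's theorem: a finite bipartite graph has a cover `(A, B)` and a matching `M` with
`|A| + |B| = |M|`. -/
theorem konig (G : Finset (α × β)) :
    ∃ (A : Finset α) (B : Finset β) (M : Finset (α × β)), PairCover G A B ∧ M ⊆ G ∧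
      (∀ p ∈ M, ∀ q ∈ M, p ≠ q → p.1 ≠ q.1 ∧ p.2 ≠ q.2) ∧ A.card + B.card = M.card := by
  classical
  -- a minimum cover
  have hex : ∃ n, ∃ A : Finset α, ∃ B : Finset β, PairCover G A B ∧ A.card + B.card = n :=
    ⟨_, G.image Prod.fst, ∅, fun p hp => Or.inl (mem_image_of_mem _ hp), rfl⟩
  obtain ⟨A, B, hcov, hn⟩ := Nat.find_spec hex
  have hmin : ∀ A' B', PairCover G A' B' → A.card + B.card ≤ A'.card + B'.card := by
    intro A' B' h
    rw [hn]
    exact Nat.find_min' hex ⟨A', B', h, rfl⟩
  obtain ⟨f, hf, hfG⟩ := hall_side G A B hcov hmin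
  -- the swapped graph
  let G' : Finset (β × α) := G.image Prod.swap
  have hcov' : PairCover G' B A := by
    intro p hp
    simp only [G', mem_image] at hp
    obtain ⟨q, hq, rfl⟩ := hp
    rcases hcov q hq with h | h
    · right; exact h
    · left; exact h
  have hmin' : ∀ B' A', PairCover G' B' A' → B.card + A.card ≤ B'.card + A'.card := by
    intro B' A' h
    have : PairCover G A' B' := by
      intro p hp
      rcases h p.swap (mem_image_of_mem _ hp) with h | h
      · right; exact h
      · left; exact h
    have := hmin A' B' this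
    omega
  obtain ⟨g, hg, hgG⟩ := hall_side G' B A hcov' hmin'
  have hgG' : ∀ b : {b // b ∈ B}, (g b, (b : β)) ∈ G ∧ g b ∉ A := by
    intro b
    obtain ⟨h1, h2⟩ := hgG b
    simp only [G', mem_image] at h1
    obtain ⟨q, hq, hq'⟩ := h1
    refine ⟨?_, h2⟩
    have : q = (g b, (b : β)) := by
      have := congrArg Prod.swap hq'
      simpa using this
    rw [← this]; exact hq
  let M1 : Finset (α × β) := (univ : Finset {a // a ∈ A}).image
    (fun a : {a // a ∈ A} => ((a : α), f a))
  let M2 : Finset (α × β) := (univ : Finset {b // b ∈ B}).image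
    (fun b : {b // b ∈ B} => (g b, (b : β)))
  have hM1card : M1.card = A.card := by
    rw [card_image_of_injective]
    · simp
    · intro a a' h
      exact Subtype.ext (congrArg Prod.fst h)
  have hM2card : M2.card = B.card := by
    rw [card_image_of_injective]
    · simp
    · intro a a' h
      exact Subtype.ext (congrArg Prod.snd h)
  have hdisj : Disjoint M1 M2 := by
    rw [disjoint_left]
    intro p hp1 hp2
    simp only [M1, M2, mem_image, mem_univ, true_and] at hp1 hp2
    obtain ⟨a, rfl⟩ := hp1
    obtain ⟨b, hb⟩ := hp2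
    have : g b = (a : α) := congrArg Prod.fst hb
    exact (hgG' b).2 (this ▸ a.2)
  refine ⟨A, B, M1 ∪ M2, hcov, ?_, ?_, ?_⟩
  · intro p hp
    rcases mem_union.1 hp with hp | hp
    · simp only [M1, mem_image, mem_univ, true_and] at hp
      obtain ⟨a, rfl⟩ := hp
      exact (hfG a).1
    · simp only [M2, mem_image, mem_univ, true_and] at hp
      obtain ⟨b, rfl⟩ := hp
      exact (hgG' b).1
  · intro p hp q hq hpq
    rcases mem_union.1 hp with hp | hp <;> rcases mem_union.1 hq with hq | hq
    · simp only [M1, mem_image, mem_univ, true_and] at hp hq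
      obtain ⟨a, rfl⟩ := hp
      obtain ⟨a', rfl⟩ := hq
      have hne : a ≠ a' := by
        rintro rfl; exact hpq rfl
      exact ⟨fun h => hne (Subtype.ext h), fun h => hne (hf h)⟩
    · simp only [M1, M2, mem_image, mem_univ, true_and] at hp hq
      obtain ⟨a, rfl⟩ := hp
      obtain ⟨b, rfl⟩ := hq
      refine ⟨fun h => (hgG' b).2 ?_, fun h => (hfG a).2 ?_⟩
      · simp only at h; rw [← h]; exact a.2
      · simp only at h; rw [h]; exact b.2
    · simp only [M1, M2, mem_image, mem_univ, true_and] at hp hq
      obtain ⟨b, rfl⟩ := hp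
      obtain ⟨a, rfl⟩ := hq
      refine ⟨fun h => (hgG' b).2 ?_, fun h => (hfG a).2 ?_⟩
      · simp only at h; rw [h]; exact a.2
      · simp only at h; rw [← h]; exact b.2
    · simp only [M2, mem_image, mem_univ, true_and] at hp hq
      obtain ⟨b, rfl⟩ := hp
      obtain ⟨b', rfl⟩ := hq
      have hne : b ≠ b' := by
        rintro rfl; exact hpq rfl
      exact ⟨fun h => hne (hg h), fun h => hne (Subtype.ext h)⟩
  · rw [card_union_of_disjoint hdisj, hM1card, hM2card]

end Konig

section Greedy

variable {γ : Type*} [DecidableEq γ]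

/-- Greedy independent set: if every element of `S` is related to at most `d` other elements
of `S`, then `S` has an independent subset `I` with `|S| ≤ (d + 1) |I|`. -/
theorem greedy_indep (R : γ → γ → Prop) (hsymm : ∀ x y, R x y → R y x) (d : ℕ) :
    ∀ (n : ℕ) (S : Finset γ), S.card = n →
      (∀ x ∈ S, ∃ T : Finset γ, T.card ≤ d ∧ ∀ y ∈ S, y ≠ x → R x y → y ∈ T) →
      ∃ I ⊆ S, (∀ x ∈ I, ∀ y ∈ I, x ≠ y → ¬ R x y) ∧ S.card ≤ (d + 1) * I.card := by
  classical
  intro n
  induction n using Nat.strong_induction_on with
  | _ n ih =>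
    intro S hS hdeg
    rcases S.eq_empty_or_nonempty with rfl | ⟨x, hx⟩
    · exact ⟨∅, Subset.refl _, by simp, by simp⟩
    · obtain ⟨T, hT, hTx⟩ := hdeg x hx
      set S' : Finset γ := S \ insert x T with hS'
      have hsub : S' ⊆ S := sdiff_subset
      have hxS' : x ∉ S' := by simp [hS']
      have hlt : S'.card < n := by
        rw [← hS]
        exact card_lt_card ⟨hsub, fun h => hxS' (h hx)⟩
      have hdeg' : ∀ z ∈ S', ∃ T : Finset γ, T.card ≤ d ∧ ∀ y ∈ S', y ≠ z → R z y → y ∈ T := by
        intro z hz
        obtain ⟨T', hT', hT'z⟩ := hdeg z (hsub hz)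
        exact ⟨T', hT', fun y hy => hT'z y (hsub hy)⟩
      obtain ⟨I, hI, hind, hcard⟩ := ih _ hlt S' rfl hdeg'
      have hxI : x ∉ I := fun h => hxS' (hI h)
      have hnot : ∀ y ∈ I, ¬ R x y := by
        intro y hy hR
        have hyS' := hI hy
        have hyS := hsub hyS'
        have hne : y ≠ x := fun h => hxI (h ▸ hy)
        have := hTx y hyS hne hR
        simp only [hS', mem_sdiff, mem_insert, not_or] at hyS'
        exact hyS'.2.2 this
      refine ⟨insert x I, ?_, ?_, ?_⟩
      · intro y hy
        rcases mem_insert.1 hy with rfl | hy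
        · exact hx
        · exact hsub (hI hy)
      · intro a ha b hb hab
        rcases mem_insert.1 ha with ha' | ha' <;> rcases mem_insert.1 hb with hb' | hb'
        · exact absurd (ha'.trans hb'.symm) hab
        · rw [ha']; exact hnot b hb'
        · rw [hb']; exact fun h => hnot a ha' (hsymm _ _ h)
        · exact hind a ha' b hb' hab
      · rw [card_insert_of_notMem hxI]
        have h1 : S.card ≤ S'.card + (insert x T).card := by
          have : S ⊆ S' ∪ insert x T := by
            intro y hy
            by_cases h : y ∈ insert x T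
            · exact mem_union_right _ h
            · exact mem_union_left _ (mem_sdiff.2 ⟨hy, h⟩)
          exact (card_le_card this).trans (card_union_le _ _)
        have h2 : (insert x T).card ≤ d + 1 := (card_insert_le _ _).trans (by omega)
        nlinarith

end Greedy

end Vale.Agent.P045
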