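import Vale.Agent.P045.Defs
import Vale.Agent.P045.Konig

namespace Vale.Agent.P045

open Finset

variable {r : ℕ} {V : Type*} [DecidableEq V]

omit [DecidableEq V] in
theorem tau_le_card {H : Finset (Fin r → V)} {C : Finset (Fin r × V)} (h : IsCover H C) :
    tau H ≤ C.card :=
  Nat.sInf_le ⟨C, h, rfl⟩

omit [DecidableEq V] in
theorem card_le_nu {H M : Finset (Fin r → V)} (h : IsMatching H M) : M.card ≤ nu H := by
  apply le_csSup
  · refine ⟨H.card, ?_⟩
    rintro n ⟨M', hM', rfl⟩
    exact card_le_card hM'.1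
  · exact ⟨M, h, rfl⟩

/-- The general bound: if `D k` bounds the degrees in every part `k` other than `i` and `j`,
then there are a cover `C` and a matching `M` with `|C| ≤ (1 + ∑_{k ≠ i, j} (D k - 1)) |M|`. -/
theorem exists_cover_matching (H : Finset (Fin r → V)) (i j : Fin r) (D : Fin r → ℕ)
    (hD : ∀ k, k ≠ i → k ≠ j → ∀ v, deg H k v ≤ D k) :
    ∃ (C : Finset (Fin r × V)) (M : Finset (Fin r → V)), IsCover H C ∧ IsMatching H M ∧
      C.card ≤ (1 + ∑ k ∈ (univ.erase i).erase j, (D k - 1)) * M.card := by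
  classical
  set G : Finset (V × V) := H.image (fun e => (e i, e j)) with hG
  obtain ⟨A, B, M0, hcov, hM0G, hM0, hcard⟩ := konig G
  -- lift the matching
  have hlift : ∀ p ∈ M0, ∃ e ∈ H, (e i, e j) = p := by
    intro p hp
    have := hM0G hp
    simp only [hG, mem_image] at this
    exact this
  choose φ hφH hφ using hlift
  set E : Finset (Fin r → V) := M0.attach.image (fun p => φ p.1 p.2) with hE
  have hEcard : E.card = M0.card := by
    rw [hE, card_image_of_injective, card_attach]
    intro p q hpq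
    have h1 := hφ p.1 p.2
    have h2 := hφ q.1 q.2
    simp only at hpq
    apply Subtype.ext
    rw [← h1, ← h2, hpq]
  have hEH : E ⊆ H := by
    intro e he
    simp only [hE, mem_image] at he
    obtain ⟨p, _, rfl⟩ := he
    exact hφH p.1 p.2
  have hEij : ∀ e ∈ E, ∀ f ∈ E, e ≠ f → e i ≠ f i ∧ e j ≠ f j := by
    intro e he f hf hef
    simp only [hE, mem_image] at he hf
    obtain ⟨p, _, rfl⟩ := he
    obtain ⟨q, _, rfl⟩ := hf
    have hpq : p.1 ≠ q.1 := fun h => hef (by rw [Subtype.ext h])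
    have h1 := hφ p.1 p.2
    have h2 := hφ q.1 q.2
    have := hM0 p.1 p.2 q.1 q.2 hpq
    rw [← h1, ← h2] at this
    exact this
  -- the conflict relation
  let R : (Fin r → V) → (Fin r → V) → Prop := fun e f => ∃ k, k ≠ i ∧ k ≠ j ∧ e k = f k
  have hsymm : ∀ x y, R x y → R y x := by
    rintro x y ⟨k, h1, h2, h3⟩
    exact ⟨k, h1, h2, h3.symm⟩
  set d : ℕ := ∑ k ∈ (univ.erase i).erase j, (D k - 1) with hd
  have hdeg : ∀ x ∈ E, ∃ T : Finset (Fin r → V), T.card ≤ d ∧
      ∀ y ∈ E, y ≠ x → R x y → y ∈ T := by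
    intro x hx
    refine ⟨((univ.erase i).erase j).biUnion
      (fun k => (H.filter (fun e => e k = x k)).erase x), ?_, ?_⟩
    · refine card_biUnion_le.trans ?_
      apply sum_le_sum
      intro k hk
      have hk1 : k ≠ j := (mem_erase.1 hk).1
      have hk2 : k ≠ i := (mem_erase.1 (mem_erase.1 hk).2).1
      have hxmem : x ∈ H.filter (fun e => e k = x k) := mem_filter.2 ⟨hEH hx, rfl⟩
      rw [card_erase_of_mem hxmem]
      have := hD k hk2 hk1 (x k)
      unfold deg at this
      have h' : (H.filter (fun e => e k = x k)).card ≤ D k := by convert this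
      omega
    · rintro y hy hyx ⟨k, hk1, hk2, hk3⟩
      refine mem_biUnion.2 ⟨k, ?_, ?_⟩
      · exact mem_erase.2 ⟨hk2, mem_erase.2 ⟨hk1, mem_univ _⟩⟩
      · exact mem_erase.2 ⟨hyx, mem_filter.2 ⟨hEH hy, hk3.symm⟩⟩
  obtain ⟨I, hIE, hind, hIcard⟩ := greedy_indep R hsymm d E.card E rfl hdeg
  refine ⟨A.image (fun a => (i, a)) ∪ B.image (fun b => (j, b)), I, ?_, ?_, ?_⟩
  · intro e he
    have : (e i, e j) ∈ G := mem_image_of_mem (fun e : Fin r → V => (e i, e j)) he
    rcases hcov _ this with h | h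
    · exact ⟨i, mem_union_left _ (mem_image_of_mem _ h)⟩
    · exact ⟨j, mem_union_right _ (mem_image_of_mem _ h)⟩
  · refine ⟨hIE.trans hEH, ?_⟩
    intro e he f hf hef k
    by_cases hki : k = i
    · rw [hki]; exact (hEij e (hIE he) f (hIE hf) hef).1
    · by_cases hkj : k = j
      · rw [hkj]; exact (hEij e (hIE he) f (hIE hf) hef).2
      · exact fun h => hind e he f hf hef ⟨k, hki, hkj, h⟩
  · calc (A.image (fun a => (i, a)) ∪ B.image (fun b => (j, b))).card
        ≤ (A.image (fun a => (i, a))).card + (B.image (fun b => (j, b))).card :=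
          card_union_le _ _
      _ ≤ A.card + B.card := Nat.add_le_add card_image_le card_image_le
      _ = E.card := by rw [hcard, hEcard]
      _ ≤ (d + 1) * I.card := hIcard
      _ = (1 + d) * I.card := by rw [Nat.add_comm]

/-- `τ(H) ≤ (1 + ∑_{k ≠ i, j} (D k - 1)) ν(H)` when `D k` bounds the degrees in part `k`. -/
theorem tau_le_of_degree_bound (H : Finset (Fin r → V)) (i j : Fin r) (D : Fin r → ℕ)
    (hD : ∀ k, k ≠ i → k ≠ j → ∀ v, deg H k v ≤ D k) :
    tau H ≤ (1 + ∑ k ∈ (univ.erase i).erase j, (D k - 1)) * nu H := by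
  obtain ⟨C, M, hC, hM, hcard⟩ := exists_cover_matching H i j D hD
  calc tau H ≤ C.card := tau_le_card hC
    _ ≤ _ := hcard
    _ ≤ _ := Nat.mul_le_mul_left _ (card_le_nu hM)

/-- Ryser's inequality when all vertices outside two parts have degree at most two. -/
theorem ryser_of_degree_le_two (H : Finset (Fin r → V)) (i j : Fin r) (hij : i ≠ j)
    (hD : ∀ k, k ≠ i → k ≠ j → ∀ v, deg H k v ≤ 2) :
    tau H ≤ (r - 1) * nu H := by
  have h := tau_le_of_degree_bound H i j (fun _ => 2) hD
  have hsum : ∑ k ∈ ((univ : Finset (Fin r)).erase i).erase j, (2 - 1) = r - 2 := by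
    rw [sum_const, card_erase_of_mem (mem_erase.2 ⟨hij.symm, mem_univ _⟩),
      card_erase_of_mem (mem_univ _)]
    simp
    omega
  rw [hsum] at h
  have hr : 2 ≤ r := by
    have h1 := i.2
    have h2 := j.2
    have h3 : (i : ℕ) ≠ j := fun h => hij (Fin.ext h)
    omega
  have : 1 + (r - 2) = r - 1 := by omega
  rwa [this] at h

end Vale.Agent.P045
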